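import Vale.Agent.Lib.P335.H2.TripleTransfer
import Vale.Agent.Lib.P335.Bip.Final

/-!
# The triple class of a graph as a three-row table (problem P335)

Fix three distinct vertices `u, v, w` and a realization `E0`. The realizations that agree with
`E0` outside the triple are encoded as tables: rows are the vertices (only the three rows of the
triple are nonempty), columns are `Option (Fin n)`: the column `some z` records the neighbours
`z` outside the triple, and the single column `none` records, for the row `x`, that the inner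
pair opposite to `x` is not an edge. The encoding is a bijection from the class onto the tables
with the margins of the table of `E0`; the inverse is constructed explicitly. Consequently the
three-row inequality for tables gives the three-pair inequality for graph classes.
-/

namespace Vale.Agent.Lib.P335.H7

open Finset
open Classical
open Vale.Agent.Lib.P335
open Vale.Agent.Lib.P335.Gr
open Vale.Agent.Lib.P335.Bip (ip)

variable {n : ℕ} {d : Fin n → ℕ}

/-- The inner pair opposite to `x` in the triple `u, v, w`. -/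
def opp (u v w x : Fin n) : Sym2 (Fin n) :=
  if x = u then s(v, w) else if x = v then s(u, w) else s(u, v)

/-- Indicator of an edge. -/
def ind (E : Finset (Sym2 (Fin n))) (p : Sym2 (Fin n)) : ℕ := if p ∈ E then 1 else 0

/-- The number of edges inside the triple. -/
def inner (u v w : Fin n) (E : Finset (Sym2 (Fin n))) : ℕ :=
  ind E s(u, v) + ind E s(u, w) + ind E s(v, w)

/-- The number of neighbours of `x` outside the triple. -/
def out (u v w : Fin n) (E : Finset (Sym2 (Fin n))) (x : Fin n) : ℕ :=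
  (univ.filter (fun z => z ∉ ({u, v, w} : Finset (Fin n)) ∧ s(x, z) ∈ E)).card

/-- The table of the edge set `E` with respect to the triple `u, v, w`. -/
noncomputable def tbl (u v w : Fin n) (E : Finset (Sym2 (Fin n))) (x : Fin n) :
    Finset (Option (Fin n)) :=
  univ.filter (fun j => x ∈ ({u, v, w} : Finset (Fin n)) ∧
    Option.elim j (opp u v w x ∉ E)
      (fun z => z ∉ ({u, v, w} : Finset (Fin n)) ∧ s(x, z) ∈ E))

theorem some_mem_tbl (u v w : Fin n) (E : Finset (Sym2 (Fin n))) (x z : Fin n) :
    some z ∈ tbl u v w E x ↔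
      x ∈ ({u, v, w} : Finset (Fin n)) ∧ z ∉ ({u, v, w} : Finset (Fin n)) ∧ s(x, z) ∈ E := by
  simp [tbl]

theorem none_mem_tbl (u v w : Fin n) (E : Finset (Sym2 (Fin n))) (x : Fin n) :
    none ∈ tbl u v w E x ↔ x ∈ ({u, v, w} : Finset (Fin n)) ∧ opp u v w x ∉ E := by
  simp [tbl]

theorem tbl_eq_empty (u v w : Fin n) (E : Finset (Sym2 (Fin n))) (x : Fin n)
    (hx : x ∉ ({u, v, w} : Finset (Fin n))) : tbl u v w E x = ∅ := by
  simp [tbl, hx]

theorem opp_left (u v w : Fin n) : opp u v w u = s(v, w) := by simp [opp]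

theorem opp_mid (u v w : Fin n) (huv : u ≠ v) : opp u v w v = s(u, w) := by
  simp [opp, huv.symm]

theorem opp_right (u v w : Fin n) (huw : u ≠ w) (hvw : v ≠ w) : opp u v w w = s(u, v) := by
  simp [opp, huw.symm, hvw.symm]

theorem ind_eq_iff (E E' : Finset (Sym2 (Fin n))) (p : Sym2 (Fin n)) :
    ind E p = ind E' p ↔ (p ∈ E ↔ p ∈ E') := by
  unfold ind
  by_cases h : p ∈ E <;> by_cases h' : p ∈ E' <;> simp [h, h']

theorem card_filter_triple (u v w : Fin n) (huv : u ≠ v) (huw : u ≠ w) (hvw : v ≠ w)
    (P : Fin n → Prop) [DecidablePred P] :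
    (({u, v, w} : Finset (Fin n)).filter P).card
      = (if P u then 1 else 0) + (if P v then 1 else 0) + (if P w then 1 else 0) := by
  rw [card_filter, sum_insert (by simp [huv, huw]), sum_insert (by simp [hvw]), sum_singleton,
    add_assoc]

theorem card_filter_option {α : Type} [Fintype α] (P : Option α → Prop) [DecidablePred P] :
    (univ.filter P).card
      = (if P none then 1 else 0) + (univ.filter (fun z => P (some z))).card := by
  rw [card_filter, Fintype.sum_option, card_filter]

/-- The neighbours of `x` split into those outside and those inside the triple. -/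
theorem card_nbrs_split (u v w : Fin n) (E : Finset (Sym2 (Fin n))) (x : Fin n) :
    (nbrs E x).card = out u v w E x
      + (({u, v, w} : Finset (Fin n)).filter (fun z => s(x, z) ∈ E)).card := by
  have h := card_filter_add_card_filter_not (s := nbrs E x)
    (fun z => z ∈ ({u, v, w} : Finset (Fin n)))
  have h1 : (nbrs E x).filter (fun z => z ∈ ({u, v, w} : Finset (Fin n)))
      = ({u, v, w} : Finset (Fin n)).filter (fun z => s(x, z) ∈ E) := by
    ext z
    simp only [nbrs, mem_filter, mem_univ, true_and]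
    tauto
  have h2 : (nbrs E x).filter (fun z => ¬ z ∈ ({u, v, w} : Finset (Fin n)))
      = univ.filter (fun z => z ∉ ({u, v, w} : Finset (Fin n)) ∧ s(x, z) ∈ E) := by
    ext z
    simp only [nbrs, mem_filter, mem_univ, true_and]
    tauto
  rw [h1, h2] at h
  unfold out
  omega

/-- Inside the triple: the inner degree of `x` plus the indicator of the opposite pair is the
number of inner edges. -/
theorem inner_deg (u v w : Fin n) (huv : u ≠ v) (huw : u ≠ w) (hvw : v ≠ w)
    (E : Finset (Sym2 (Fin n))) (hE : ∀ e ∈ E, ¬ e.IsDiag) (x : Fin n)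
    (hx : x ∈ ({u, v, w} : Finset (Fin n))) :
    (({u, v, w} : Finset (Fin n)).filter (fun z => s(x, z) ∈ E)).card + ind E (opp u v w x)
      = inner u v w E := by
  have hl : ∀ a, s(a, a) ∉ E := fun a h => hE _ h (by simp)
  have e1 : s(v, u) = s(u, v) := Sym2.eq_swap
  have e2 : s(w, u) = s(u, w) := Sym2.eq_swap
  have e3 : s(w, v) = s(v, w) := Sym2.eq_swap
  rw [card_filter_triple u v w huv huw hvw]
  simp only [mem_insert, mem_singleton] at hx
  rcases hx with rfl | rfl | rfl
  · rw [opp_left, if_neg (hl _)]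
    unfold inner ind
    omega
  · rw [opp_mid _ _ _ huv, if_neg (hl _), e1]
    unfold inner ind
    omega
  · rw [opp_right _ _ _ huw hvw, if_neg (hl _), e2, e3]
    unfold inner ind
    omega

/-- Degree of a vertex of the triple in a loop-free edge set. -/
theorem nbrs_inner (u v w : Fin n) (huv : u ≠ v) (huw : u ≠ w) (hvw : v ≠ w)
    (E : Finset (Sym2 (Fin n))) (hE : ∀ e ∈ E, ¬ e.IsDiag) (x : Fin n)
    (hx : x ∈ ({u, v, w} : Finset (Fin n))) :
    (nbrs E x).card + ind E (opp u v w x) = out u v w E x + inner u v w E := by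
  have h1 := card_nbrs_split u v w E x
  have h2 := inner_deg u v w huv huw hvw E hE x hx
  omega

/-- The size of a row of the table. -/
theorem card_tbl (u v w : Fin n) (E : Finset (Sym2 (Fin n))) (x : Fin n)
    (hx : x ∈ ({u, v, w} : Finset (Fin n))) :
    (tbl u v w E x).card + ind E (opp u v w x) = out u v w E x + 1 := by
  unfold tbl out
  rw [card_filter_option]
  simp only [Option.elim_none, Option.elim_some, hx, true_and]
  unfold ind
  by_cases h : opp u v w x ∈ E
  · simp [h]
  · simp [h, add_comm]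

/-- Rows of the triple: degree against row size. -/
theorem nbrs_tbl (u v w : Fin n) (huv : u ≠ v) (huw : u ≠ w) (hvw : v ≠ w)
    (E : Finset (Sym2 (Fin n))) (hE : ∀ e ∈ E, ¬ e.IsDiag) (x : Fin n)
    (hx : x ∈ ({u, v, w} : Finset (Fin n))) :
    (nbrs E x).card + 1 = (tbl u v w E x).card + inner u v w E := by
  have h1 := nbrs_inner u v w huv huw hvw E hE x hx
  have h2 := card_tbl u v w E x hx
  omega

/-- The virtual column. -/
theorem card_col_none (u v w : Fin n) (huv : u ≠ v) (huw : u ≠ w) (hvw : v ≠ w)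
    (E : Finset (Sym2 (Fin n))) :
    (univ.filter (fun i => none ∈ tbl u v w E i)).card + inner u v w E = 3 := by
  have h1 : univ.filter (fun i => none ∈ tbl u v w E i)
      = ({u, v, w} : Finset (Fin n)).filter (fun i => opp u v w i ∉ E) := by
    ext i
    simp only [mem_filter, mem_univ, true_and, none_mem_tbl]
  rw [h1, card_filter_triple u v w huv huw hvw, opp_left, opp_mid _ _ _ huv,
    opp_right _ _ _ huw hvw]
  unfold inner ind
  by_cases h1 : s(u, v) ∈ E <;> by_cases h2 : s(u, w) ∈ E <;> by_cases h3 : s(v, w) ∈ E <;>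
    simp [h1, h2, h3]

/-- A real column outside the triple. -/
theorem card_col_some (u v w : Fin n) (E : Finset (Sym2 (Fin n))) (z : Fin n)
    (hz : z ∉ ({u, v, w} : Finset (Fin n))) :
    (nbrs E z).card = out u v w E z + (univ.filter (fun i => some z ∈ tbl u v w E i)).card := by
  have h1 : univ.filter (fun i => some z ∈ tbl u v w E i)
      = ({u, v, w} : Finset (Fin n)).filter (fun x => s(z, x) ∈ E) := by
    ext i
    have e1 : s(i, z) = s(z, i) := Sym2.eq_swap
    simp only [mem_filter, mem_univ, true_and, some_mem_tbl, hz, not_false_eq_true, e1]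
  rw [h1]
  exact card_nbrs_split u v w E z

/-- A column indexed by a vertex of the triple is empty. -/
theorem col_some_empty (u v w : Fin n) (E : Finset (Sym2 (Fin n))) (z : Fin n)
    (hz : z ∈ ({u, v, w} : Finset (Fin n))) :
    univ.filter (fun i => some z ∈ tbl u v w E i) = ∅ := by
  ext i
  simp only [mem_filter, mem_univ, some_mem_tbl, hz, not_true_eq_false, false_and,
    and_false, notMem_empty]

/-- The outside degree of an outside vertex depends only on the graph off the triple. -/
theorem out_eq_of_gagree (u v w : Fin n) (E E' : Finset (Sym2 (Fin n)))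
    (h : GAgree {u, v, w} E E') (z : Fin n) (hz : z ∉ ({u, v, w} : Finset (Fin n))) :
    out u v w E z = out u v w E' z := by
  unfold out
  congr 1
  refine filter_congr fun a _ => ?_
  constructor
  · rintro ⟨ha, hza⟩
    exact ⟨ha, (h z a hz ha).mp hza⟩
  · rintro ⟨ha, hza⟩
    exact ⟨ha, (h z a hz ha).mpr hza⟩

/-- Double counting of the cross edges. -/
theorem cross_count (u v w : Fin n) (huv : u ≠ v) (huw : u ≠ w) (hvw : v ≠ w)
    (E : Finset (Sym2 (Fin n))) :
    out u v w E u + out u v w E v + out u v w E w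
      = ∑ z ∈ univ.filter (fun z => z ∉ ({u, v, w} : Finset (Fin n))),
          (({u, v, w} : Finset (Fin n)).filter (fun x => s(z, x) ∈ E)).card := by
  have h := sum_card_bipartiteAbove_eq_sum_card_bipartiteBelow
    (s := ({u, v, w} : Finset (Fin n)))
    (t := univ.filter (fun z => z ∉ ({u, v, w} : Finset (Fin n))))
    (r := fun x z => s(z, x) ∈ E)
  simp only [bipartiteAbove, bipartiteBelow] at h
  rw [← h, sum_insert (by simp [huv, huw]), sum_insert (by simp [hvw]), sum_singleton,
    add_assoc]
  have key : ∀ x : Fin n,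
      ((univ.filter (fun z => z ∉ ({u, v, w} : Finset (Fin n)))).filter
        (fun z => s(z, x) ∈ E)).card = out u v w E x := by
    intro x
    unfold out
    congr 1
    ext z
    have e1 : s(z, x) = s(x, z) := Sym2.eq_swap
    simp only [mem_filter, mem_univ, true_and, e1]
  rw [key, key, key]

/-- The number of inner edges is constant on the class. -/
theorem inner_eq_of_gagree (u v w : Fin n) (huv : u ≠ v) (huw : u ≠ w) (hvw : v ≠ w)
    (E E' : Finset (Sym2 (Fin n))) (hE : IsRealization d E) (hE' : IsRealization d E')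
    (h : GAgree {u, v, w} E E') : inner u v w E = inner u v w E' := by
  have c1 := cross_count u v w huv huw hvw E
  have c2 := cross_count u v w huv huw hvw E'
  have hs : ∑ z ∈ univ.filter (fun z => z ∉ ({u, v, w} : Finset (Fin n))),
        (({u, v, w} : Finset (Fin n)).filter (fun x => s(z, x) ∈ E)).card
      = ∑ z ∈ univ.filter (fun z => z ∉ ({u, v, w} : Finset (Fin n))),
        (({u, v, w} : Finset (Fin n)).filter (fun x => s(z, x) ∈ E')).card := by
    refine sum_congr rfl fun z hz => ?_
    have hz' : z ∉ ({u, v, w} : Finset (Fin n)) := (mem_filter.mp hz).2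
    have a1 := card_nbrs_split u v w E z
    have a2 := card_nbrs_split u v w E' z
    have a3 := out_eq_of_gagree u v w E E' h z hz'
    have a4 := hE.2 z
    have a5 := hE'.2 z
    omega
  have hu : u ∈ ({u, v, w} : Finset (Fin n)) := by simp
  have hv : v ∈ ({u, v, w} : Finset (Fin n)) := by simp
  have hw : w ∈ ({u, v, w} : Finset (Fin n)) := by simp
  have k1 := nbrs_inner u v w huv huw hvw E hE.1 u hu
  have k2 := nbrs_inner u v w huv huw hvw E hE.1 v hv
  have k3 := nbrs_inner u v w huv huw hvw E hE.1 w hw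
  have k1' := nbrs_inner u v w huv huw hvw E' hE'.1 u hu
  have k2' := nbrs_inner u v w huv huw hvw E' hE'.1 v hv
  have k3' := nbrs_inner u v w huv huw hvw E' hE'.1 w hw
  rw [opp_left] at k1 k1'
  rw [opp_mid _ _ _ huv] at k2 k2'
  rw [opp_right _ _ _ huw hvw] at k3 k3'
  rw [hE.2] at k1 k2 k3
  rw [hE'.2] at k1' k2' k3'
  unfold inner at *
  omega

/-- Every realization in the class of `E0` has a table with the margins of the table of `E0`. -/
theorem isTable_tbl (u v w : Fin n) (huv : u ≠ v) (huw : u ≠ w) (hvw : v ≠ w)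
    (E0 E : Finset (Sym2 (Fin n))) (hE0 : IsRealization d E0) (hE : IsRealization d E)
    (h : GAgree {u, v, w} E0 E) :
    Bip.IsTable (fun i => (tbl u v w E0 i).card)
      (fun j => (univ.filter (fun i => j ∈ tbl u v w E0 i)).card) (tbl u v w E) := by
  have hin := inner_eq_of_gagree u v w huv huw hvw E0 E hE0 hE h
  refine ⟨fun i => ?_, fun j => ?_⟩
  · beta_reduce
    by_cases hi : i ∈ ({u, v, w} : Finset (Fin n))
    · have a1 := nbrs_tbl u v w huv huw hvw E hE.1 i hi
      have a2 := nbrs_tbl u v w huv huw hvw E0 hE0.1 i hi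
      have a3 := hE.2 i
      have a4 := hE0.2 i
      omega
    · rw [tbl_eq_empty u v w E i hi, tbl_eq_empty u v w E0 i hi]
  · beta_reduce
    cases j with
    | none =>
      have a1 := card_col_none u v w huv huw hvw E
      have a2 := card_col_none u v w huv huw hvw E0
      omega
    | some z =>
      by_cases hz : z ∈ ({u, v, w} : Finset (Fin n))
      · rw [col_some_empty u v w E z hz, col_some_empty u v w E0 z hz]
      · have a1 := card_col_some u v w E z hz
        have a2 := card_col_some u v w E0 z hz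
        have a3 := out_eq_of_gagree u v w E0 E h z hz
        have a4 := hE.2 z
        have a5 := hE0.2 z
        omega

/-- The table determines the realization inside its class. -/
theorem tbl_injective (u v w : Fin n) (huv : u ≠ v) (huw : u ≠ w) (hvw : v ≠ w)
    (E E' : Finset (Sym2 (Fin n))) (hE : IsRealization d E) (hE' : IsRealization d E')
    (h : GAgree {u, v, w} E E') (ht : tbl u v w E = tbl u v w E') : E = E' := by
  have hu : u ∈ ({u, v, w} : Finset (Fin n)) := by simp
  have hv : v ∈ ({u, v, w} : Finset (Fin n)) := by simp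
  have hw : w ∈ ({u, v, w} : Finset (Fin n)) := by simp
  have key : ∀ x ∈ ({u, v, w} : Finset (Fin n)),
      (opp u v w x ∈ E ↔ opp u v w x ∈ E') := by
    intro x hx
    have h1 := none_mem_tbl u v w E x
    have h2 := none_mem_tbl u v w E' x
    rw [ht] at h1
    have h3 : (opp u v w x ∉ E) ↔ (opp u v w x ∉ E') := by
      constructor
      · intro hh
        exact (h2.mp (h1.mpr ⟨hx, hh⟩)).2
      · intro hh
        exact (h1.mp (h2.mpr ⟨hx, hh⟩)).2
    exact not_iff_not.mp h3
  have kvw := key u hu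
  rw [opp_left] at kvw
  have kuw := key v hv
  rw [opp_mid _ _ _ huv] at kuw
  have kuv := key w hw
  rw [opp_right _ _ _ huw hvw] at kuv
  have cross : ∀ x ∈ ({u, v, w} : Finset (Fin n)), ∀ z, z ∉ ({u, v, w} : Finset (Fin n)) →
      (s(x, z) ∈ E ↔ s(x, z) ∈ E') := by
    intro x hx z hz
    have h1 := some_mem_tbl u v w E x z
    have h2 := some_mem_tbl u v w E' x z
    rw [ht] at h1
    constructor
    · intro hh
      exact (h2.mp (h1.mpr ⟨hx, hz, hh⟩)).2.2
    · intro hh
      exact (h1.mp (h2.mpr ⟨hx, hz, hh⟩)).2.2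
  have hl : ∀ a, s(a, a) ∉ E := fun a h => hE.1 _ h (by simp)
  have hl' : ∀ a, s(a, a) ∉ E' := fun a h => hE'.1 _ h (by simp)
  have e1 : s(v, u) = s(u, v) := Sym2.eq_swap
  have e2 : s(w, u) = s(u, w) := Sym2.eq_swap
  have e3 : s(w, v) = s(v, w) := Sym2.eq_swap
  ext p
  induction p using Sym2.ind with
  | _ a b =>
    by_cases ha : a ∈ ({u, v, w} : Finset (Fin n))
    · by_cases hb : b ∈ ({u, v, w} : Finset (Fin n))
      · simp only [mem_insert, mem_singleton] at ha hb
        rcases ha with ha | ha | ha <;> rcases hb with hb | hb | hb <;> rw [ha, hb]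
        · exact iff_of_false (hl _) (hl' _)
        · exact kuv
        · exact kuw
        · rw [e1]
          exact kuv
        · exact iff_of_false (hl _) (hl' _)
        · exact kvw
        · rw [e2]
          exact kuw
        · rw [e3]
          exact kvw
        · exact iff_of_false (hl _) (hl' _)
      · exact cross a ha b hb
    · by_cases hb : b ∈ ({u, v, w} : Finset (Fin n))
      · rw [Sym2.eq_swap]
        exact cross b hb a ha
      · exact h a b ha hb

/-- Agreement off a pair of the triple is agreement of the row of the third vertex. -/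
theorem gagree_iff_agreeOff (u v w : Fin n) (huv : u ≠ v) (huw : u ≠ w) (hvw : v ≠ w)
    (E E' : Finset (Sym2 (Fin n))) (hE : IsRealization d E) (hE' : IsRealization d E')
    (h : GAgree {u, v, w} E E') (t : Fin n) (ht : t ∈ ({u, v, w} : Finset (Fin n)))
    (b : Finset (Fin n)) (hb : ∀ a, a ∈ b ↔ a ∈ ({u, v, w} : Finset (Fin n)) ∧ a ≠ t) :
    GAgree b E E' ↔ Bip.AgreeOff b (tbl u v w E) (tbl u v w E') := by
  have htb : t ∉ b := fun h' => ((hb t).mp h').2 rfl
  have hbT : ∀ a, a ∉ ({u, v, w} : Finset (Fin n)) → a ∉ b := fun a ha h' =>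
    ha ((hb a).mp h').1
  have hT : ∀ a, a ∉ b → a ∈ ({u, v, w} : Finset (Fin n)) → a = t := by
    intro a hab haT
    by_contra hne
    exact hab ((hb a).mpr ⟨haT, hne⟩)
  constructor
  · intro hg i hi
    by_cases hiT : i ∈ ({u, v, w} : Finset (Fin n))
    · have hit : i = t := hT i hi hiT
      rw [hit]
      have ho : out u v w E t = out u v w E' t := by
        unfold out
        congr 1
        refine filter_congr fun z _ => ?_
        constructor
        · rintro ⟨hz, hh⟩
          exact ⟨hz, (hg t z htb (hbT z hz)).mp hh⟩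
        · rintro ⟨hz, hh⟩
          exact ⟨hz, (hg t z htb (hbT z hz)).mpr hh⟩
      have hin := inner_eq_of_gagree u v w huv huw hvw E E' hE hE' h
      have k1 := nbrs_inner u v w huv huw hvw E hE.1 t ht
      have k2 := nbrs_inner u v w huv huw hvw E' hE'.1 t ht
      rw [hE.2] at k1
      rw [hE'.2] at k2
      have hind : ind E (opp u v w t) = ind E' (opp u v w t) := by omega
      have hopp := (ind_eq_iff E E' _).mp hind
      ext j
      cases j with
      | none => rw [none_mem_tbl, none_mem_tbl, hopp]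
      | some z =>
        rw [some_mem_tbl, some_mem_tbl]
        by_cases hz : z ∈ ({u, v, w} : Finset (Fin n))
        · simp [hz]
        · rw [hg t z htb (hbT z hz)]
    · rw [tbl_eq_empty u v w E i hiT, tbl_eq_empty u v w E' i hiT]
  · intro ha a c hab hcb
    have hrow := ha t htb
    have cross : ∀ z, z ∉ ({u, v, w} : Finset (Fin n)) → (s(t, z) ∈ E ↔ s(t, z) ∈ E') := by
      intro z hz
      have h1 := some_mem_tbl u v w E t z
      have h2 := some_mem_tbl u v w E' t z
      rw [hrow] at h1
      constructor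
      · intro hh
        exact (h2.mp (h1.mpr ⟨ht, hz, hh⟩)).2.2
      · intro hh
        exact (h1.mp (h2.mpr ⟨ht, hz, hh⟩)).2.2
    have hl : ∀ a, s(a, a) ∉ E := fun a h => hE.1 _ h (by simp)
    have hl' : ∀ a, s(a, a) ∉ E' := fun a h => hE'.1 _ h (by simp)
    by_cases haT : a ∈ ({u, v, w} : Finset (Fin n))
    · rw [hT a hab haT]
      by_cases hcT : c ∈ ({u, v, w} : Finset (Fin n))
      · rw [hT c hcb hcT]
        exact iff_of_false (hl _) (hl' _)
      · exact cross c hcT
    · by_cases hcT : c ∈ ({u, v, w} : Finset (Fin n))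
      · rw [hT c hcb hcT, Sym2.eq_swap]
        exact cross a haT
      · exact h a c haT hcT

/-- The adjacency relation of the graph built from a table `y` and the part of `E0` off the
triple. -/
def adjOf (u v w : Fin n) (E0 : Finset (Sym2 (Fin n))) (y : Fin n → Finset (Option (Fin n)))
    (a b : Fin n) : Prop :=
  (a ∉ ({u, v, w} : Finset (Fin n)) ∧ b ∉ ({u, v, w} : Finset (Fin n)) ∧ s(a, b) ∈ E0) ∨
  (a ∈ ({u, v, w} : Finset (Fin n)) ∧ b ∉ ({u, v, w} : Finset (Fin n)) ∧ some b ∈ y a) ∨
  (a ∉ ({u, v, w} : Finset (Fin n)) ∧ b ∈ ({u, v, w} : Finset (Fin n)) ∧ some a ∈ y b) ∨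
  (a ∈ ({u, v, w} : Finset (Fin n)) ∧ b ∈ ({u, v, w} : Finset (Fin n)) ∧ a ≠ b ∧
    ∀ x ∈ ({u, v, w} : Finset (Fin n)), x ≠ a → x ≠ b → none ∉ y x)

theorem adjOf_symm (u v w : Fin n) (E0 : Finset (Sym2 (Fin n)))
    (y : Fin n → Finset (Option (Fin n))) {a b : Fin n} (h : adjOf u v w E0 y a b) :
    adjOf u v w E0 y b a := by
  rcases h with ⟨h1, h2, h3⟩ | ⟨h1, h2, h3⟩ | ⟨h1, h2, h3⟩ | ⟨h1, h2, h3, h4⟩
  · refine Or.inl ⟨h2, h1, ?_⟩
    rw [Sym2.eq_swap]
    exact h3
  · exact Or.inr (Or.inr (Or.inl ⟨h2, h1, h3⟩))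
  · exact Or.inr (Or.inl ⟨h2, h1, h3⟩)
  · exact Or.inr (Or.inr (Or.inr ⟨h2, h1, h3.symm, fun x hx hxb hxa => h4 x hx hxa hxb⟩))

/-- The edge set built from a table `y` and the part of `E0` off the triple. -/
noncomputable def ofTbl (u v w : Fin n) (E0 : Finset (Sym2 (Fin n)))
    (y : Fin n → Finset (Option (Fin n))) : Finset (Sym2 (Fin n)) :=
  univ.filter (fun p => ∃ a b, p = s(a, b) ∧ adjOf u v w E0 y a b)

theorem mem_ofTbl (u v w : Fin n) (E0 : Finset (Sym2 (Fin n)))
    (y : Fin n → Finset (Option (Fin n))) (a b : Fin n) :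
    s(a, b) ∈ ofTbl u v w E0 y ↔ adjOf u v w E0 y a b := by
  simp only [ofTbl, mem_filter, mem_univ, true_and]
  constructor
  · rintro ⟨a', b', h, hadj⟩
    rcases Sym2.eq_iff.mp h with ⟨h1, h2⟩ | ⟨h1, h2⟩
    · rw [h1, h2]
      exact hadj
    · rw [h1, h2]
      exact adjOf_symm u v w E0 y hadj
  · intro h
    exact ⟨a, b, rfl, h⟩

theorem ofTbl_noloop (u v w : Fin n) (E0 : Finset (Sym2 (Fin n)))
    (hE0 : ∀ e ∈ E0, ¬ e.IsDiag) (y : Fin n → Finset (Option (Fin n))) :
    ∀ e ∈ ofTbl u v w E0 y, ¬ e.IsDiag := by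
  intro e
  induction e using Sym2.ind with
  | _ a b =>
    rw [mem_ofTbl]
    intro h hd
    have hab : a = b := by simpa using hd
    rw [hab] at h
    rcases h with ⟨_, _, h3⟩ | ⟨h1, h2, _⟩ | ⟨h1, h2, _⟩ | ⟨_, _, h3, _⟩
    · exact hE0 _ h3 (by simp)
    · exact h2 h1
    · exact h1 h2
    · exact h3 rfl

theorem gagree_ofTbl (u v w : Fin n) (E0 : Finset (Sym2 (Fin n)))
    (y : Fin n → Finset (Option (Fin n))) : GAgree {u, v, w} E0 (ofTbl u v w E0 y) := by
  intro a b ha hb
  rw [mem_ofTbl]
  unfold adjOf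
  simp only [ha, hb, not_false_eq_true, true_and, false_and, and_false, or_false]

/-- The table of the constructed graph is the given table. -/
theorem tbl_ofTbl (u v w : Fin n) (huv : u ≠ v) (huw : u ≠ w) (hvw : v ≠ w)
    (E0 : Finset (Sym2 (Fin n))) (y : Fin n → Finset (Option (Fin n)))
    (hy0 : ∀ x, x ∉ ({u, v, w} : Finset (Fin n)) → y x = ∅)
    (hyT : ∀ x z, some z ∈ y x → z ∉ ({u, v, w} : Finset (Fin n))) :
    tbl u v w (ofTbl u v w E0 y) = y := by
  have hu : u ∈ ({u, v, w} : Finset (Fin n)) := by simp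
  have hv : v ∈ ({u, v, w} : Finset (Fin n)) := by simp
  have hw : w ∈ ({u, v, w} : Finset (Fin n)) := by simp
  have avw : adjOf u v w E0 y v w ↔ none ∉ y u := by
    unfold adjOf
    simp [huv, huw, hvw, huv.symm, huw.symm, hvw.symm]
  have auw : adjOf u v w E0 y u w ↔ none ∉ y v := by
    unfold adjOf
    simp [huv, huw, hvw, huv.symm, huw.symm, hvw.symm]
  have auv : adjOf u v w E0 y u v ↔ none ∉ y w := by
    unfold adjOf
    simp [huv, huw, hvw, huv.symm, huw.symm, hvw.symm]
  funext x
  by_cases hx : x ∈ ({u, v, w} : Finset (Fin n))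
  · ext j
    cases j with
    | none =>
      rw [none_mem_tbl]
      simp only [hx, true_and]
      simp only [mem_insert, mem_singleton] at hx
      rcases hx with hx | hx | hx <;> rw [hx]
      · rw [opp_left, mem_ofTbl, avw, not_not]
      · rw [opp_mid _ _ _ huv, mem_ofTbl, auw, not_not]
      · rw [opp_right _ _ _ huw hvw, mem_ofTbl, auv, not_not]
    | some z =>
      rw [some_mem_tbl, mem_ofTbl]
      by_cases hz : z ∈ ({u, v, w} : Finset (Fin n))
      · have : some z ∉ y x := fun h => hyT x z h hz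
        simp [hz, this]
      · unfold adjOf
        simp [hx, hz]
  · rw [tbl_eq_empty u v w _ x hx, hy0 x hx]

/-- The constructed graph is a realization whose table is the given table. -/
theorem ofTbl_isRealization (u v w : Fin n) (huv : u ≠ v) (huw : u ≠ w) (hvw : v ≠ w)
    (E0 : Finset (Sym2 (Fin n))) (hE0 : IsRealization d E0)
    (y : Fin n → Finset (Option (Fin n)))
    (hy : Bip.IsTable (fun i => (tbl u v w E0 i).card)
      (fun j => (univ.filter (fun i => j ∈ tbl u v w E0 i)).card) y) :
    IsRealization d (ofTbl u v w E0 y) ∧ tbl u v w (ofTbl u v w E0 y) = y := by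
  obtain ⟨hy1, hy2⟩ := hy
  beta_reduce at hy1 hy2
  have hy0 : ∀ x, x ∉ ({u, v, w} : Finset (Fin n)) → y x = ∅ := by
    intro x hx
    have h1 := hy1 x
    rw [tbl_eq_empty u v w E0 x hx, card_empty] at h1
    exact card_eq_zero.mp h1
  have hyT : ∀ x z, some z ∈ y x → z ∉ ({u, v, w} : Finset (Fin n)) := by
    intro x z hxz hz
    have h1 := hy2 (some z)
    rw [col_some_empty u v w E0 z hz, card_empty] at h1
    have h2 : x ∈ univ.filter (fun i => some z ∈ y i) := by simp [hxz]
    rw [card_eq_zero.mp h1] at h2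
    exact absurd h2 (notMem_empty x)
  have htbl := tbl_ofTbl u v w huv huw hvw E0 y hy0 hyT
  have hloop := ofTbl_noloop u v w E0 hE0.1 y
  have hga := gagree_ofTbl u v w E0 y
  refine ⟨⟨hloop, fun a => ?_⟩, htbl⟩
  by_cases ha : a ∈ ({u, v, w} : Finset (Fin n))
  · have a1 := nbrs_tbl u v w huv huw hvw (ofTbl u v w E0 y) hloop a ha
    have a2 := nbrs_tbl u v w huv huw hvw E0 hE0.1 a ha
    have v1 := card_col_none u v w huv huw hvw (ofTbl u v w E0 y)
    have v2 := card_col_none u v w huv huw hvw E0
    rw [htbl] at a1 v1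
    have r1 := hy1 a
    have c1 := hy2 none
    have d1 := hE0.2 a
    omega
  · have b1 := card_col_some u v w (ofTbl u v w E0 y) a ha
    have b2 := card_col_some u v w E0 a ha
    have b3 := out_eq_of_gagree u v w E0 (ofTbl u v w E0 y) hga a ha
    rw [htbl] at b1
    have c1 := hy2 (some a)
    have d1 := hE0.2 a
    omega

theorem mem_pair_left (u v w : Fin n) (huv : u ≠ v) (huw : u ≠ w) (a : Fin n) :
    a ∈ ({v, w} : Finset (Fin n)) ↔ a ∈ ({u, v, w} : Finset (Fin n)) ∧ a ≠ u := by
  simp only [mem_insert, mem_singleton]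
  constructor
  · rintro (h | h)
    · exact ⟨Or.inr (Or.inl h), fun h' => huv (h'.symm.trans h)⟩
    · exact ⟨Or.inr (Or.inr h), fun h' => huw (h'.symm.trans h)⟩
  · rintro ⟨h | h | h, h'⟩
    · exact absurd h h'
    · exact Or.inl h
    · exact Or.inr h

theorem mem_pair_mid (u v w : Fin n) (huv : u ≠ v) (hvw : v ≠ w) (a : Fin n) :
    a ∈ ({u, w} : Finset (Fin n)) ↔ a ∈ ({u, v, w} : Finset (Fin n)) ∧ a ≠ v := by
  simp only [mem_insert, mem_singleton]
  constructor
  · rintro (h | h)
    · exact ⟨Or.inl h, fun h' => huv (h.symm.trans h')⟩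
    · exact ⟨Or.inr (Or.inr h), fun h' => hvw (h'.symm.trans h)⟩
  · rintro ⟨h | h | h, h'⟩
    · exact Or.inl h
    · exact absurd h h'
    · exact Or.inr h

theorem mem_pair_right (u v w : Fin n) (huw : u ≠ w) (hvw : v ≠ w) (a : Fin n) :
    a ∈ ({u, v} : Finset (Fin n)) ↔ a ∈ ({u, v, w} : Finset (Fin n)) ∧ a ≠ w := by
  simp only [mem_insert, mem_singleton]
  constructor
  · rintro (h | h)
    · exact ⟨Or.inl h, fun h' => huw (h.symm.trans h')⟩
    · exact ⟨Or.inr (Or.inl h), fun h' => hvw (h.symm.trans h')⟩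
  · rintro ⟨h | h | h, h'⟩
    · exact Or.inl h
    · exact Or.inr h
    · exact absurd h h'

/-- The three-pair inequality for graph classes: for three distinct vertices `u, v, w`, the
three pair averages of the triple satisfy the three-row inequality. -/
theorem graph_three_row (u v w : Fin n) (huv : u ≠ v) (huw : u ≠ w) (hvw : v ≠ w)
    (f : Omega d → ℝ) :
    ip f (gavg {v, w} f) + ip f (gavg {u, w} f) + ip f (gavg {u, v} f)
      ≤ 2 * ip f f + ip f (gavg {u, v, w} f) := by
  refine H2.globalize {u, v, w} {v, w} {u, w} {u, v} f (fun G0 => ?_)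
  have hT : ∀ G : Omega d, G ∈ gcls {u, v, w} G0 →
      Bip.IsTable (fun i => (tbl u v w G0.1 i).card)
        (fun j => (univ.filter (fun i => j ∈ tbl u v w G0.1 i)).card) (tbl u v w G.1) :=
    fun G hG => isTable_tbl u v w huv huw hvw G0.1 G.1 G0.2 G.2 ((mem_gcls _ G0 G).mp hG)
  have hT0 := hT G0 (self_mem_gcls _ G0)
  let φ : Omega d → Bip.Tab (fun i => (tbl u v w G0.1 i).card)
      (fun j => (univ.filter (fun i => j ∈ tbl u v w G0.1 i)).card) := fun G =>
    if h : Bip.IsTable (fun i => (tbl u v w G0.1 i).card)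
        (fun j => (univ.filter (fun i => j ∈ tbl u v w G0.1 i)).card) (tbl u v w G.1)
    then ⟨tbl u v w G.1, h⟩ else ⟨tbl u v w G0.1, hT0⟩
  have hφ : ∀ G ∈ gcls {u, v, w} G0, (φ G).1 = tbl u v w G.1 := by
    intro G hG
    simp only [φ, dif_pos (hT G hG)]
  have hcl : ∀ G ∈ gcls {u, v, w} G0, ∀ G' ∈ gcls {u, v, w} G0,
      GAgree {u, v, w} G.1 G'.1 := fun G hG G' hG' =>
    ((mem_gcls _ G0 G).mp hG).symm.trans ((mem_gcls _ G0 G').mp hG')
  have hu : u ∈ ({u, v, w} : Finset (Fin n)) := by simp
  have hv : v ∈ ({u, v, w} : Finset (Fin n)) := by simp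
  have hw : w ∈ ({u, v, w} : Finset (Fin n)) := by simp
  refine H2.class_transfer {u, v, w} {v, w} {u, w} {u, v} ?_ ?_ ?_ G0 u v w φ ?_ ?_ ?_ ?_ ?_ ?_
    (fun F hF => Bip.three_row u v w huv huw hvw F hF) f
  · intro a ha
    exact ((mem_pair_left u v w huv huw a).mp ha).1
  · intro a ha
    exact ((mem_pair_mid u v w huv hvw a).mp ha).1
  · intro a ha
    exact ((mem_pair_right u v w huw hvw a).mp ha).1
  · intro G hG G' hG' h
    have h' : tbl u v w G.1 = tbl u v w G'.1 := by
      rw [← hφ G hG, ← hφ G' hG', h]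
    exact Subtype.ext
      (tbl_injective u v w huv huw hvw G.1 G'.1 G.2 G'.2 (hcl G hG G' hG') h')
  · intro y
    obtain ⟨hreal, htbl⟩ := ofTbl_isRealization u v w huv huw hvw G0.1 G0.2 y.1 y.2
    have hmem : (⟨ofTbl u v w G0.1 y.1, hreal⟩ : Omega d) ∈ gcls {u, v, w} G0 := by
      rw [mem_gcls]
      exact gagree_ofTbl u v w G0.1 y.1
    refine ⟨⟨ofTbl u v w G0.1 y.1, hreal⟩, hmem, ?_⟩
    apply Subtype.ext
    rw [hφ _ hmem]
    exact htbl
  · intro G hG G' hG'
    rw [hφ G hG, hφ G' hG']
    exact gagree_iff_agreeOff u v w huv huw hvw G.1 G'.1 G.2 G'.2 (hcl G hG G' hG') u hu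
      {v, w} (mem_pair_left u v w huv huw)
  · intro G hG G' hG'
    rw [hφ G hG, hφ G' hG']
    exact gagree_iff_agreeOff u v w huv huw hvw G.1 G'.1 G.2 G'.2 (hcl G hG G' hG') v hv
      {u, w} (mem_pair_mid u v w huv hvw)
  · intro G hG G' hG'
    rw [hφ G hG, hφ G' hG']
    exact gagree_iff_agreeOff u v w huv huw hvw G.1 G'.1 G.2 G'.2 (hcl G hG G' hG') w hw
      {u, v} (mem_pair_right u v w huw hvw)
  · intro x y i hi
    have hx : x.1 i = ∅ := by
      have h1 := x.2.1 i
      beta_reduce at h1
      rw [tbl_eq_empty u v w G0.1 i hi, card_empty] at h1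
      exact card_eq_zero.mp h1
    have hy : y.1 i = ∅ := by
      have h1 := y.2.1 i
      beta_reduce at h1
      rw [tbl_eq_empty u v w G0.1 i hi, card_empty] at h1
      exact card_eq_zero.mp h1
    rw [hx, hy]

end Vale.Agent.Lib.P335.H7
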